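import Mathlib

/-!
# First-order algorithms for sampling from a Gibbs law: the class, the law, the oracle model
-/

namespace Vale.Agent.P347.Q

open MeasureTheory Filter

/-- `ℝ^d` with its Euclidean norm. -/
abbrev Sp (d : ℕ) : Type := EuclideanSpace ℝ (Fin d)

/-- The class `𝒱_d`: `V ∈ C²(ℝ^d)`, `V(0) = 0`, `∇V(0) = 0` and `I ≤ ∇²V(x) ≤ 2I` for all `x`. -/
structure IsPotential {d : ℕ} (V : Sp d → ℝ) : Prop where
  contDiff : ContDiff ℝ 2 V
  zero : V 0 = 0
  grad_zero : gradient V 0 = 0
  hess_lower : ∀ x h : Sp d, ‖h‖ ^ 2 ≤ fderiv ℝ (fderiv ℝ V) x h h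
  hess_upper : ∀ x h : Sp d, fderiv ℝ (fderiv ℝ V) x h h ≤ 2 * ‖h‖ ^ 2

/-- The Gibbs law `Z⁻¹ exp(-V(x)) dx`. -/
noncomputable def gibbs {d : ℕ} (V : Sp d → ℝ) : Measure (Sp d) :=
  (volume : Measure (Sp d)).tilted fun x => -V x

/-- A randomised algorithm on `ℝ^d` making `q` adaptive first-order queries.  Its randomness is a
seed with values in a standard Borel space.  The `t`-th query point (`t = 0, …, q - 1`) is a
measurable function of the seed and of the answers (pairs of a value and a gradient) to the
queries before it; the output is a measurable function of the seed and of all `q` answers. -/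
structure Algorithm (d q : ℕ) where
  Seed : Type
  [mSeed : MeasurableSpace Seed]
  [borel : StandardBorelSpace Seed]
  law : Measure Seed
  [prob : IsProbabilityMeasure law]
  query : (t : ℕ) → Seed × (Fin t → ℝ × Sp d) → Sp d
  query_meas : ∀ t, Measurable (query t)
  output : Seed × (Fin q → ℝ × Sp d) → Sp d
  output_meas : Measurable output

attribute [instance] Algorithm.mSeed Algorithm.borel Algorithm.prob

/-- The answers to the first `t` queries when the potential is `V` and the seed is `s`. -/
noncomputable def Algorithm.answers {d q : ℕ} (A : Algorithm d q) (V : Sp d → ℝ)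
    (s : A.Seed) : (t : ℕ) → Fin t → ℝ × Sp d
  | 0 => Fin.elim0
  | t + 1 => Fin.snoc (α := fun _ => ℝ × Sp d) (A.answers V s t)
      (V (A.query t (s, A.answers V s t)), gradient V (A.query t (s, A.answers V s t)))

/-- The output of the algorithm for the potential `V` and the seed `s`. -/
noncomputable def Algorithm.run {d q : ℕ} (A : Algorithm d q) (V : Sp d → ℝ)
    (s : A.Seed) : Sp d :=
  A.output (s, A.answers V s q)

/-- For every `V ∈ 𝒱_d` the output law is within total variation distance `α` of the
Gibbs law of `V`. -/
def Algorithm.Accurate {d q : ℕ} (A : Algorithm d q) (α : ℝ) : Prop :=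
  ∀ V : Sp d → ℝ, IsPotential V → ∀ B : Set (Sp d), MeasurableSet B →
    |(A.law.map (A.run V)).real B - (gibbs V).real B| ≤ α

/-- `Q(d)`: the least number of queries of an algorithm with total variation error `1/10`. -/
noncomputable def queryComplexity (d : ℕ) : ℕ :=
  sInf {q : ℕ | ∃ A : Algorithm d q, A.Accurate (1 / 10)}

/-- The dimension exponent `limsup log Q(d) / log d`. -/
noncomputable def dimExponent : EReal :=
  limsup (fun d : ℕ => ((Real.log (queryComplexity d) / Real.log d : ℝ) : EReal)) atTop

end Vale.Agent.P347.Q
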