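import Mathlib
import Vale.Agent.P347.Q.Model

/-!
# Internal definitions for the upper bound `γ_* ≤ 1/4`
-/

namespace Vale.Agent.P347.Q

open MeasureTheory ProbabilityTheory
open scoped InnerProductSpace

/-- the standard Gaussian law of `ℝ^d` -/
noncomputable abbrev gam (d : ℕ) : Measure (Sp d) := stdGaussian (Sp d)

/-- the law `π_U ⊗ γ` on the phase space -/
noncomputable def phase {d : ℕ} (U : Sp d → ℝ) : Measure (Sp d × Sp d) := (gibbs U).prod (gam d)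

/-- total variation bound, tested against measurable functions with values in `[0,1]` -/
def TVle {α : Type*} [MeasurableSpace α] (μ ν : Measure α) (r : ℝ) : Prop :=
  ∀ g : α → ℝ, Measurable g → (∀ x, 0 ≤ g x) → (∀ x, g x ≤ 1) →
    |∫ x, g x ∂μ - ∫ x, g x ∂ν| ≤ r

/-- Gaussian smoothing `E V(x + ε ξ)` -/
noncomputable def sm {d : ℕ} (V : Sp d → ℝ) (ε : ℝ) (x : Sp d) : ℝ :=
  ∫ ξ, V (x + ε • ξ) ∂(gam d)

/-- basis vectors -/
noncomputable abbrev ee {d : ℕ} (j : Fin d) : Sp d := EuclideanSpace.single j (1 : ℝ)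

/-- `C²` with `I ≤ ∇²V ≤ 2I` (no normalisation at `0`) -/
structure Hess12 {d : ℕ} (V : Sp d → ℝ) : Prop where
  contDiff : ContDiff ℝ 2 V
  lower : ∀ x h : Sp d, ‖h‖ ^ 2 ≤ fderiv ℝ (fderiv ℝ V) x h h
  upper : ∀ x h : Sp d, fderiv ℝ (fderiv ℝ V) x h h ≤ 2 * ‖h‖ ^ 2

/-- smooth potentials: the class in which the smoothed potentials `sm V ε` lie -/
structure NPot {d : ℕ} (U : Sp d → ℝ) : Prop where
  tg : Function.HasTemperateGrowth U
  lower : ∀ x h : Sp d, ‖h‖ ^ 2 ≤ fderiv ℝ (fderiv ℝ U) x h h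
  upper : ∀ x h : Sp d, fderiv ℝ (fderiv ℝ U) x h h ≤ 2 * ‖h‖ ^ 2
  grad0 : ‖gradient U 0‖ ≤ 2 * √d

theorem IsPotential.hess12 {d : ℕ} {V : Sp d → ℝ} (h : IsPotential V) : Hess12 V :=
  ⟨h.contDiff, h.hess_lower, h.hess_upper⟩

theorem NPot.hess12 {d : ℕ} {U : Sp d → ℝ} (h : NPot U) : Hess12 U :=
  ⟨h.tg.1.of_le (by norm_cast), h.lower, h.upper⟩

/-- partial derivative of a function on `ℝ^d` -/
noncomputable def Dd {d : ℕ} (j : Fin d) (φ : Sp d → ℝ) (x : Sp d) : ℝ := fderiv ℝ φ x (ee j)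

/-- Squared Hilbert–Schmidt norm at `x` of the `k`-th derivative of the family `F`:
`∑_{i₁…i_k, κ} (∂_{i₁}…∂_{i_k} F_κ (x))²`. -/
noncomputable def DB {d : ℕ} : (k : ℕ) → {κ : Type} → [Fintype κ] → (κ → Sp d → ℝ) → Sp d → ℝ
  | 0, _, _, F, x => ∑ a, F a x ^ 2
  | k + 1, κ, _, F, x => DB k (κ := Fin d × κ) (fun a => Dd a.1 (F a.2)) x

/-- derivative tensors of a smoothed potential: `‖D^{k+2}U(x)[v]‖²_HS ≤ c_k ε^{-2k} |v|²` -/
def Tens {d : ℕ} (c : ℕ → ℝ) (ε : ℝ) (U : Sp d → ℝ) : Prop :=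
  ∀ (k : ℕ) (v x : Sp d),
    DB k (fun (j : Fin d) (y : Sp d) => fderiv ℝ (fderiv ℝ U) y v (ee j)) x
      ≤ c k / ε ^ (2 * k) * ‖v‖ ^ 2

/-- the Laplacian -/
noncomputable def lap {d : ℕ} (U : Sp d → ℝ) (x : Sp d) : ℝ :=
  ∑ j : Fin d, fderiv ℝ (fderiv ℝ U) x (ee j) (ee j)

/-- a positive quadrature rule on `[0,1]` with `N` nodes, exact for polynomials of degree `< M` -/
structure QRule (M N : ℕ) (t w : Fin N → ℝ) : Prop where
  t_nonneg : ∀ i, 0 ≤ t i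
  t_le : ∀ i, t i ≤ 1
  w_nonneg : ∀ i, 0 ≤ w i
  w_sum : ∑ i, w i = 1
  exact : ∀ k < M, ∑ i, w i * t i ^ k = 1 / ((k : ℝ) + 1)

/-- parameters of the algorithm -/
structure Par (N : ℕ) where
  t : Fin N → ℝ
  w : Fin N → ℝ
  eta : ℝ
  eps : ℝ
  sig : ℝ

/-- the noise of one step: `(ξ_i)_i, ζ_y, ζ_p` -/
abbrev Nz (d N : ℕ) : Type := (Fin N → Sp d) × (Sp d × Sp d)

/-- its law: all components independent standard Gaussians -/
noncomputable abbrev nz (d N : ℕ) : Measure (Nz d N) :=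
  (Measure.pi fun _ : Fin N => gam d).prod ((gam d).prod (gam d))

variable {d N : ℕ}

/-- the auxiliary positions `A_i = y + η t_i p - (η t_i)²/2 ∇V(y)` -/
noncomputable def aux (V : Sp d → ℝ) (P : Par N) (z : Sp d × Sp d) (i : Fin N) : Sp d :=
  z.1 + (P.eta * P.t i) • z.2 - ((P.eta * P.t i) ^ 2 / 2) • gradient V z.1

/-- `ŷ = y + η p - η² ∑ w_i (1 - t_i) g_i`, `g_i = ∇V(A_i + ε ξ_i)` -/
noncomputable def hat1 (V : Sp d → ℝ) (P : Par N) (ξ : Fin N → Sp d) (z : Sp d × Sp d) : Sp d :=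
  z.1 + P.eta • z.2 -
    (P.eta ^ 2) • ∑ i, (P.w i * (1 - P.t i)) • gradient V (aux V P z i + P.eps • ξ i)

/-- `p̂ = p - η ∑ w_i g_i` -/
noncomputable def hat2 (V : Sp d → ℝ) (P : Par N) (ξ : Fin N → Sp d) (z : Sp d × Sp d) : Sp d :=
  z.2 - P.eta • ∑ i, P.w i • gradient V (aux V P z i + P.eps • ξ i)

/-- damping factor `a = 1 - 2η` -/
noncomputable def Par.a (P : Par N) : ℝ := 1 - 2 * P.eta

/-- noise level `b = √(1 - a²)` -/
noncomputable def Par.b (P : Par N) : ℝ := √(1 - P.a ^ 2)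

/-- One step of the chain: `y' = ŷ + σ ζ_y`, `p' = a p̂ + b ζ_p`. -/
noncomputable def step (V : Sp d → ℝ) (P : Par N) (ω : Nz d N) (z : Sp d × Sp d) : Sp d × Sp d :=
  (hat1 V P ω.1 z + P.sig • ω.2.1, P.a • hat2 V P ω.1 z + P.b • ω.2.2)

/-- the transition operator of the chain -/
noncomputable def Pop (V : Sp d → ℝ) (P : Par N) (g : Sp d × Sp d → ℝ) (z : Sp d × Sp d) : ℝ :=
  ∫ ω, g (step V P ω z) ∂(nz d N)

/-- the squared distance `|Δy|² + |Δy + Δp|²` for which the chain contracts -/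
noncomputable def Qn (z : Sp d × Sp d) : ℝ := ‖z.1‖ ^ 2 + ‖z.1 + z.2‖ ^ 2

/-- partial derivatives on the phase space, position and momentum -/
noncomputable def Yd (j : Fin d) (φ : Sp d × Sp d → ℝ) (z : Sp d × Sp d) : ℝ :=
  fderiv ℝ φ z (ee j, 0)

noncomputable def Pd (j : Fin d) (φ : Sp d × Sp d → ℝ) (z : Sp d × Sp d) : ℝ :=
  fderiv ℝ φ z (0, ee j)

/-- the Liouville operator `p·∇_y - ∇U·∇_p` -/
noncomputable def Liou (U : Sp d → ℝ) (φ : Sp d × Sp d → ℝ) (z : Sp d × Sp d) : ℝ :=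
  fderiv ℝ φ z (z.2, -gradient U z.1)

/-- the `i`-th component of the force as a function on the phase space -/
noncomputable def force (U : Sp d → ℝ) (i : Fin d) (z : Sp d × Sp d) : ℝ := Dd i U z.1

/-- A (local in time) Hamiltonian flow of `U(y) + |p|²/2`, preserving `phase U`. -/
structure IsFlow (U : Sp d → ℝ) (T : ℝ) (Φ : ℝ → Sp d × Sp d → Sp d × Sp d) : Prop where
  cont : Continuous (Function.uncurry Φ)
  zero : ∀ z, Φ 0 z = z
  deriv : ∀ z, ∀ t ∈ Set.Ioo (-T) T,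
    HasDerivAt (fun t => Φ t z) ((Φ t z).2, -gradient U (Φ t z).1) t
  inv : ∀ t ∈ Set.Ioo (-T) T, MeasurePreserving (Φ t) (phase U) (phase U)

end Vale.Agent.P347.Q
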