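import Mathlib
import Vale.Agent.P347.Q.Defs

/-!
# Module B (Basic): elementary facts on potentials with `I ≤ ∇²V ≤ 2I` and their Gibbs laws

`gradient V` versus `fderiv`: `InnerProductSpace.toDual`, `gradient_eq...`, `inner_gradient_left`.
`grad_two`: along the segment the symmetric operator `2 - ∇²V` satisfies `0 ≤ 2 - ∇²V ≤ 1`, so it has
norm `≤ 1`; e.g. for fixed `x y` put `L = 2 • id - ∇V`, `fderiv L` symmetric with quadratic form in
`[0, ‖h‖²]`, hence norm `≤ 1` (Cauchy-Schwarz for the positive form), then mean value inequality.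
`grad_lip`, `grad_strong` follow by the triangle inequality.
Growth: `V y ≥ V 0 + ⟪∇V 0, y⟫ + ‖y‖²/2 ≥ ‖y‖²/4 - const`, so `exp(-V)` times a polynomial is
integrable (`volume`): compare with a Gaussian / `integrable_exp_neg_mul_sq...` /
`(1+‖x‖)^(-r)` (Japanese bracket, `integrable_one_add_norm`) since `exp(-‖x‖²/4) ≤ C (1+‖x‖)^(-r)`.
-/

open MeasureTheory ProbabilityTheory
open scoped InnerProductSpace

namespace Vale.Agent.P347.Q

variable {d : ℕ} {V : Sp d → ℝ}

theorem fderiv_eq_inner (V : Sp d → ℝ) (x v : Sp d) : fderiv ℝ V x v = ⟪gradient V x, v⟫_ℝ := by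
  sorry

theorem Hess12.continuous_grad (h : Hess12 V) : Continuous (gradient V) := by
  sorry

theorem Hess12.hess_symm (h : Hess12 V) (x v w : Sp d) :
    fderiv ℝ (fderiv ℝ V) x v w = fderiv ℝ (fderiv ℝ V) x w v := by
  sorry

/-- the gradient is differentiable with derivative the Hessian -/
theorem Hess12.hasFDerivAt_grad (h : Hess12 V) (x : Sp d) :
    ∃ H : Sp d →L[ℝ] Sp d, HasFDerivAt (gradient V) H x ∧
      ∀ v w, ⟪H v, w⟫_ℝ = fderiv ℝ (fderiv ℝ V) x v w := by
  sorry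

theorem Hess12.hess_sq (h : Hess12 V) (x v : Sp d) :
    ∑ j, (fderiv ℝ (fderiv ℝ V) x v (ee j)) ^ 2 ≤ 4 * ‖v‖ ^ 2 := by
  sorry

theorem Hess12.grad_two (h : Hess12 V) (x y : Sp d) :
    ‖(2 : ℝ) • (x - y) - (gradient V x - gradient V y)‖ ≤ ‖x - y‖ := by
  sorry

theorem Hess12.grad_lip (h : Hess12 V) (x y : Sp d) :
    ‖gradient V x - gradient V y‖ ≤ 2 * ‖x - y‖ := by
  sorry

theorem Hess12.grad_strong (h : Hess12 V) (x y : Sp d) :
    ‖x - y‖ ≤ ‖gradient V x - gradient V y‖ := by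
  sorry

theorem Hess12.lower_quad (h : Hess12 V) (x y : Sp d) :
    V x + ⟪gradient V x, y - x⟫_ℝ + ‖y - x‖ ^ 2 / 2 ≤ V y := by
  sorry

theorem Hess12.upper_quad (h : Hess12 V) (x y : Sp d) :
    V y ≤ V x + ⟪gradient V x, y - x⟫_ℝ + ‖y - x‖ ^ 2 := by
  sorry

theorem Hess12.mid (h : Hess12 V) (x y : Sp d) :
    V ((1 / 2 : ℝ) • (x + y)) + ‖x - y‖ ^ 2 / 8 ≤ (V x + V y) / 2 := by
  sorry

theorem IsPotential.lower_sq (h : IsPotential V) (x : Sp d) : ‖x‖ ^ 2 / 2 ≤ V x := by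
  sorry

theorem IsPotential.upper_sq (h : IsPotential V) (x : Sp d) : V x ≤ ‖x‖ ^ 2 := by
  sorry

theorem IsPotential.grad_le (h : IsPotential V) (x : Sp d) : ‖gradient V x‖ ≤ 2 * ‖x‖ := by
  sorry

/-- quadratic growth with constants -/
theorem Hess12.growth (h : Hess12 V) : ∃ C : ℝ, ∀ x, ‖x‖ ^ 2 / 4 - C ≤ V x := by
  sorry

theorem Hess12.integrable_pow_exp (h : Hess12 V) (k : ℕ) :
    Integrable (fun x : Sp d => (1 + ‖x‖) ^ k * Real.exp (-V x)) := by
  sorry

/-- exponential moments of linear order -/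
theorem Hess12.integrable_exp_lin (h : Hess12 V) (c : ℝ) :
    Integrable (fun x : Sp d => Real.exp (c * ‖x‖) * Real.exp (-V x)) := by
  sorry

theorem Hess12.integrable_exp (h : Hess12 V) : Integrable (fun x : Sp d => Real.exp (-V x)) := by
  sorry

theorem Hess12.integral_exp_pos (h : Hess12 V) : 0 < ∫ x : Sp d, Real.exp (-V x) := by
  sorry

theorem Hess12.isProb (h : Hess12 V) : IsProbabilityMeasure (gibbs V) := by
  sorry

theorem Hess12.integral_gibbs (h : Hess12 V) (g : Sp d → ℝ) :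
    ∫ x, g x ∂(gibbs V) = (∫ x, g x * Real.exp (-V x)) / ∫ x, Real.exp (-V x) := by
  sorry

theorem Hess12.integrable_gibbs_iff (h : Hess12 V) (g : Sp d → ℝ) :
    Integrable g (gibbs V) ↔ Integrable (fun x => g x * Real.exp (-V x)) := by
  sorry

theorem Hess12.integrable_pow (h : Hess12 V) (k : ℕ) :
    Integrable (fun x : Sp d => (1 + ‖x‖) ^ k) (gibbs V) := by
  sorry

theorem Hess12.integrable_exp_norm (h : Hess12 V) (c : ℝ) :
    Integrable (fun x : Sp d => Real.exp (c * ‖x‖)) (gibbs V) := by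
  sorry

/-- calculus of total variation bounds -/
theorem TVle.symm {α : Type*} [MeasurableSpace α] {μ ν : Measure α} {r : ℝ} (h : TVle μ ν r) :
    TVle ν μ r := by
  sorry

theorem TVle.trans {α : Type*} [MeasurableSpace α] {μ ν ρ : Measure α} {r s : ℝ}
    (h : TVle μ ν r) (h' : TVle ν ρ s) : TVle μ ρ (r + s) := by
  sorry

theorem TVle.real {α : Type*} [MeasurableSpace α] {μ ν : Measure α} [IsFiniteMeasure μ]
    [IsFiniteMeasure ν] {r : ℝ} (h : TVle μ ν r) {B : Set α} (hB : MeasurableSet B) :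
    |μ.real B - ν.real B| ≤ r := by
  sorry

end Vale.Agent.P347.Q
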