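import Mathlib
import Vale.Agent.P347.Q.Basic

/-!
# Module G (Gauss): facts on the standard Gaussian law of `ℝ^d`

`gam_eq_gibbs`: `stdGaussian (EuclideanSpace ℝ (Fin d)) = (Measure.pi gaussianReal 0 1).map toLp`
(`map_pi_eq_stdGaussian`), `gaussianReal 0 1 = volume.withDensity gaussianPDF`,
`pi_withDensity`-type statement (or compare with the characteristic function / `Measure.pi`
of `withDensity`), `EuclideanSpace.volume_preserving_*`.
`gam_shift`: change of variables in the density.  `gam_conv`: characteristic functions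
(`Measure.ext_of_charFun`, `charFun_stdGaussian`).
-/

open MeasureTheory ProbabilityTheory
open scoped InnerProductSpace

namespace Vale.Agent.P347.Q

variable {d : ℕ}

theorem hess12_half_sq : Hess12 (fun x : Sp d => ‖x‖ ^ 2 / 2) := by
  sorry

theorem gam_eq_gibbs (d : ℕ) : gam d = gibbs (fun x : Sp d => ‖x‖ ^ 2 / 2) := by
  sorry

theorem gam_integrable_pow (k : ℕ) : Integrable (fun x : Sp d => (1 + ‖x‖) ^ k) (gam d) := by
  sorry

theorem gam_integrable_exp_norm (c : ℝ) :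
    Integrable (fun x : Sp d => Real.exp (c * ‖x‖)) (gam d) := by
  sorry

theorem gam_integral_norm_sq : ∫ x, ‖x‖ ^ 2 ∂(gam d) = d := by
  sorry

theorem gam_integral_norm_le : ∫ x, ‖x‖ ∂(gam d) ≤ √d := by
  sorry

theorem gam_integral_inner_sq (v : Sp d) : ∫ x, ⟪v, x⟫_ℝ ^ 2 ∂(gam d) = ‖v‖ ^ 2 := by
  sorry

theorem gam_integral_inner_mul (v w : Sp d) :
    ∫ x, ⟪v, x⟫_ℝ * ⟪w, x⟫_ℝ ∂(gam d) = ⟪v, w⟫_ℝ := by
  sorry

/-- the shift formula (valid for every function) -/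
theorem gam_shift (x : Sp d) (g : Sp d → ℝ) :
    ∫ z, g (x + z) ∂(gam d) = ∫ z, g z * Real.exp (⟪x, z⟫_ℝ - ‖x‖ ^ 2 / 2) ∂(gam d) := by
  sorry

theorem gam_integrable_exp_inner (x : Sp d) :
    Integrable (fun z : Sp d => Real.exp ⟪x, z⟫_ℝ) (gam d) := by
  sorry

theorem gam_integral_exp_inner (x : Sp d) :
    ∫ z, Real.exp ⟪x, z⟫_ℝ ∂(gam d) = Real.exp (‖x‖ ^ 2 / 2) := by
  sorry

theorem gam_integrable_exp_sq {c : ℝ} (hc : c ≤ 1 / 4) :
    Integrable (fun z : Sp d => Real.exp (c * ‖z‖ ^ 2)) (gam d) := by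
  sorry

theorem gam_integral_exp_sq_le {c : ℝ} (h0 : 0 ≤ c) (hc : c ≤ 1 / 4) :
    ∫ z : Sp d, Real.exp (c * ‖z‖ ^ 2) ∂(gam d) ≤ Real.exp (2 * c * d) := by
  sorry

/-- the law of `a ξ + b ξ'` -/
theorem gam_conv (a b : ℝ) :
    ((gam d).prod (gam d)).map (fun z => a • z.1 + b • z.2) =
      (gam d).map (fun z => √(a ^ 2 + b ^ 2) • z) := by
  sorry

end Vale.Agent.P347.Q
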