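import Mathlib
import Vale.Agent.P347.Q.Gauss

/-!
# Module I (Ibp): integration by parts for the Gibbs law and on the phase space

`PG1` = `C¹` with polynomial growth.  `ibp`: `integral_mul_fderiv_eq_neg_fderiv_mul_of_integrable`
(or `integral_fderiv_eq_zero`-type lemma: integral of a derivative of an integrable function with
integrable derivative vanishes) for `φ · exp(-V)` and Lebesgue measure on `Sp d`.
`ibpY`, `ibpP`: Fubini for `phase U = (gibbs U).prod (gam d)` and `ibp` in one variable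
(`gam_eq_gibbs` for the momentum), for the sections of `φ`; `phase` integrability from
`(1+‖z‖)^k ≤ (1+‖z.1‖)^k (1+‖z.2‖)^k`.
`div_sq`: with `δ_j ψ = B_j ψ - ∂_j ψ` one has `∫ (∂_j φ) ψ = ∫ φ δ_j ψ` and
`∂_j δ_k ψ = δ_k ∂_j ψ + (∂_j B_k) ψ` (symmetry of second derivatives), so
`∫ (∑ δ_j ψ_j)² = ∑_{jk} ∫ ψ_j ∂_j δ_k ψ_k = ∑_{jk} ∫ ∂_k ψ_j ∂_j ψ_k + ∑_{jk} ∫ ψ_j ψ_k ∂_j B_k`.
-/

open MeasureTheory ProbabilityTheory
open scoped InnerProductSpace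

namespace Vale.Agent.P347.Q

variable {d : ℕ} {V U : Sp d → ℝ}

/-- `C¹` with polynomial growth of the function and of its derivative -/
def PG1 {F : Type*} [NormedAddCommGroup F] [NormedSpace ℝ F] (φ : F → ℝ) : Prop :=
  ContDiff ℝ 1 φ ∧ ∃ (C : ℝ) (k : ℕ), ∀ x, |φ x| ≤ C * (1 + ‖x‖) ^ k ∧
    ‖fderiv ℝ φ x‖ ≤ C * (1 + ‖x‖) ^ k

theorem PG1.of_tg {F : Type*} [NormedAddCommGroup F] [NormedSpace ℝ F] {φ : F → ℝ}
    (h : Function.HasTemperateGrowth φ) : PG1 φ := by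
  sorry

theorem PG1.mul {F : Type*} [NormedAddCommGroup F] [NormedSpace ℝ F] {φ ψ : F → ℝ}
    (h : PG1 φ) (h' : PG1 ψ) : PG1 (fun x => φ x * ψ x) := by
  sorry

theorem integrable_gibbs_of_bound (hV : Hess12 V) {φ : Sp d → ℝ} (hm : Measurable φ) {C : ℝ}
    {k : ℕ} (hb : ∀ x, |φ x| ≤ C * (1 + ‖x‖) ^ k) : Integrable φ (gibbs V) := by
  sorry

theorem isProb_phase (hU : Hess12 U) : IsProbabilityMeasure (phase U) := by
  sorry

theorem integrable_phase_pow (hU : Hess12 U) (k : ℕ) :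
    Integrable (fun z : Sp d × Sp d => (1 + ‖z‖) ^ k) (phase U) := by
  sorry

theorem integrable_phase_of_bound (hU : Hess12 U) {φ : Sp d × Sp d → ℝ} (hm : Measurable φ)
    {C : ℝ} {k : ℕ} (hb : ∀ x, |φ x| ≤ C * (1 + ‖x‖) ^ k) : Integrable φ (phase U) := by
  sorry

theorem ibp (hV : Hess12 V) {φ : Sp d → ℝ} (hφ : PG1 φ) (v : Sp d) :
    ∫ x, fderiv ℝ φ x v ∂(gibbs V) = ∫ x, φ x * fderiv ℝ V x v ∂(gibbs V) := by
  sorry

theorem stein {φ : Sp d → ℝ} (hφ : PG1 φ) (v : Sp d) :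
    ∫ x, fderiv ℝ φ x v ∂(gam d) = ∫ x, φ x * ⟪x, v⟫_ℝ ∂(gam d) := by
  sorry

theorem ibpY (hU : Hess12 U) {φ : Sp d × Sp d → ℝ} (hφ : PG1 φ) (v : Sp d) :
    ∫ z, fderiv ℝ φ z (v, 0) ∂(phase U) = ∫ z, φ z * fderiv ℝ U z.1 v ∂(phase U) := by
  sorry

theorem ibpP (hU : Hess12 U) {φ : Sp d × Sp d → ℝ} (hφ : PG1 φ) (v : Sp d) :
    ∫ z, fderiv ℝ φ z (0, v) ∂(phase U) = ∫ z, φ z * ⟪z.2, v⟫_ℝ ∂(phase U) := by
  sorry

/-- temperate growth is stable under directional derivatives -/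
theorem tg_fderiv {F : Type*} [NormedAddCommGroup F] [NormedSpace ℝ F] {φ : F → ℝ}
    (h : Function.HasTemperateGrowth φ) (v : F) :
    Function.HasTemperateGrowth (fun x => fderiv ℝ φ x v) := by
  sorry

theorem fderiv_comm {F : Type*} [NormedAddCommGroup F] [NormedSpace ℝ F] {φ : F → ℝ}
    (h : Function.HasTemperateGrowth φ) (v w x : F) :
    fderiv ℝ (fun y => fderiv ℝ φ y v) x w = fderiv ℝ (fun y => fderiv ℝ φ y w) x v := by
  sorry

/-- the square of a divergence -/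
theorem div_sq {F : Type*} [NormedAddCommGroup F] [NormedSpace ℝ F] [MeasurableSpace F]
    (m : Measure F) (hint : ∀ φ : F → ℝ, Function.HasTemperateGrowth φ → Integrable φ m)
    {ι : Type*} [Fintype ι] (v : ι → F) (B : ι → F → ℝ)
    (hB : ∀ j, Function.HasTemperateGrowth (B j))
    (hibp : ∀ φ : F → ℝ, Function.HasTemperateGrowth φ → ∀ j,
      ∫ z, fderiv ℝ φ z (v j) ∂m = ∫ z, φ z * B j z ∂m)
    (ψ : ι → F → ℝ) (hψ : ∀ j, Function.HasTemperateGrowth (ψ j)) :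
    ∫ z, (∑ j, (B j z * ψ j z - fderiv ℝ (ψ j) z (v j))) ^ 2 ∂m =
      (∑ j, ∑ k, ∫ z, fderiv ℝ (ψ j) z (v k) * fderiv ℝ (ψ k) z (v j) ∂m) +
      ∑ j, ∑ k, ∫ z, ψ j z * ψ k z * fderiv ℝ (B k) z (v j) ∂m := by
  sorry

end Vale.Agent.P347.Q
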