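import Mathlib
import Vale.Agent.P347.Q.Ibp

/-!
# Module BO (Boch): moment bounds under `π_U` from integration by parts

`grad_sq_le`: `ibp` with `φ = ∂_j U`: `∫ |∇U|² = ∫ ΔU ≤ 2d`.
`lapL_sq_le`: `div_sq` with `m = gibbs U`, `v = ee`, `B_j = ψ_j = ∂_j U`: the left side is
`∫ (|∇U|² - ΔU)²`, the right side is `∫ ∑ (∂_{jk}U)² + ∫ ⟪∇²U ∇U, ∇U⟫ ≤ 4d + 2·2d` (`hess_sq`).
`norm_sq_le`: `|y| ≤ |∇U y - ∇U 0| ≤ |∇U y| + 2√d` (`grad_strong`, `grad0`).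
-/

open MeasureTheory ProbabilityTheory
open scoped InnerProductSpace

namespace Vale.Agent.P347.Q

variable {d : ℕ} {U : Sp d → ℝ}

theorem grad_sq_le (hU : NPot U) : ∫ x, ‖gradient U x‖ ^ 2 ∂(gibbs U) ≤ 2 * d := by
  sorry

theorem lapL_sq_le (hU : NPot U) :
    ∫ x, (lap U x - ‖gradient U x‖ ^ 2) ^ 2 ∂(gibbs U) ≤ 8 * d := by
  sorry

theorem lapL_abs_le (hU : NPot U) :
    ∫ x, |lap U x - ‖gradient U x‖ ^ 2| ∂(gibbs U) ≤ 3 * √d := by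
  sorry

theorem norm_sq_le (hU : NPot U) : ∫ x, ‖x‖ ^ 2 ∂(gibbs U) ≤ 12 * d := by
  sorry

/-- start of the coupling: `E_μ √Qn ≤ 10 √d` (`√Qn ≤ 2|y| + |p|`) -/
theorem sqrt_Qn_le (hU : NPot U) : ∫ z, √(Qn z) ∂(phase U) ≤ 10 * √d := by
  sorry

theorem integrable_sqrt_Qn (hU : NPot U) : Integrable (fun z => √(Qn z)) (phase U) := by
  sorry

/-- `Q(z) ≥ ` bounds on the components -/
theorem norm_le_sqrt_Qn (z : Sp d × Sp d) : ‖z.1‖ ≤ √(Qn z) ∧ ‖z.2‖ ≤ 2 * √(Qn z) := by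
  sorry

end Vale.Agent.P347.Q
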