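import Mathlib
import Vale.Agent.P347.Q.Gauss

/-!
# Module CH (Chi): the absorption lemma

`gam_shift_tv`.  By `gam_shift`, the difference is `∫ g z (exp(⟪x,z⟫ - |x|²/2) - 1) dγ`, at most
`(∫ (exp(⟪x,z⟫ - |x|²/2) - 1)²)^{1/2} = (exp |x|² - 1)^{1/2}`, and `≤ ½` of it by centering
(`g - 1/2`).  If `‖x‖ ≤ 1`, `½ √(exp(x²) - 1) ≤ ‖x‖` (`exp u - 1 ≤ 2u` for `0 ≤ u ≤ 1`);
if `‖x‖ > 1` use the trivial bound `1`.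

`absorb`.  Put `h(z) = ∫ exp(⟪F1 ω, z.1⟫ + ⟪F2 ω, z.2⟫ - (|F1 ω|² + |F2 ω|²)/2) dP(ω)`; by `gam_shift`
and Fubini the first integral is `∫ g h d(γ⊗γ)` and
`∫ h² = ∫∫ exp(⟪F1 ω, F1 ω'⟫ + ⟪F2 ω, F2 ω'⟫) dP dP' ≤ ∫ exp(s(|F1|²+|F2|²)) dP`   (hypothesis)
`= ∫∫ exp(√(2s)(⟪F1, G1⟫ + ⟪F2, G2⟫)) dP dγγ(G) ≤ ∫ exp(2 s²(|G1|²+|G2|²)) dγγ ≤ exp(8 s² d)`
(`gam_integral_exp_inner`, `gam_integral_exp_sq_le` with `c = 2 s² ≤ 1/4`).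
So `|…| ≤ ½ (exp(8 s² d) - 1)^{1/2} ≤ ½ (16 s² d)^{1/2} = 2 s √d` if `8 s² d ≤ 1`; else
`3 s √d > 1`.  (`∫ h = 1`, `(∫ (h-1)²) = ∫ h² - 1`.)  Measurability: joint measurability of the
exponentials, all positive: use `lintegral`/Tonelli for integrability.
-/

open MeasureTheory ProbabilityTheory
open scoped InnerProductSpace

namespace Vale.Agent.P347.Q

variable {d : ℕ}

theorem gam_shift_tv (x : Sp d) (g : Sp d → ℝ) (hg : Measurable g) (h0 : ∀ z, 0 ≤ g z)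
    (h1 : ∀ z, g z ≤ 1) :
    |∫ z, g (x + z) ∂(gam d) - ∫ z, g z ∂(gam d)| ≤ ‖x‖ := by
  sorry

/-- version for the product, with two different scales -/
theorem gam_shift_tv_prod {σ b : ℝ} (hσ : 0 < σ) (hb : 0 < b) (x x' y y' : Sp d)
    (g : Sp d × Sp d → ℝ) (hg : Measurable g) (h0 : ∀ z, 0 ≤ g z) (h1 : ∀ z, g z ≤ 1) :
    |∫ z, g (x + σ • z.1, y + b • z.2) ∂((gam d).prod (gam d)) -
      ∫ z, g (x' + σ • z.1, y' + b • z.2) ∂((gam d).prod (gam d))| ≤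
      ‖x - x'‖ / σ + ‖y - y'‖ / b := by
  sorry

theorem absorb {Ω : Type*} [MeasurableSpace Ω] (P : Measure Ω) [IsProbabilityMeasure P]
    (hd : 1 ≤ d) (F1 F2 : Ω → Sp d) (hF1 : Measurable F1) (hF2 : Measurable F2) (s : ℝ)
    (hs : 0 ≤ s)
    (hint : ∀ u v : Sp d, Integrable (fun om => Real.exp (⟪u, F1 om⟫_ℝ + ⟪v, F2 om⟫_ℝ)) P)
    (hmgf : ∀ u v : Sp d, ∫ om, Real.exp (⟪u, F1 om⟫_ℝ + ⟪v, F2 om⟫_ℝ) ∂P ≤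
      Real.exp (s * (‖u‖ ^ 2 + ‖v‖ ^ 2)))
    (g : Sp d × Sp d → ℝ) (hg : Measurable g) (h0 : ∀ z, 0 ≤ g z) (h1 : ∀ z, g z ≤ 1) :
    |∫ om, ∫ z, g (F1 om + z.1, F2 om + z.2) ∂((gam d).prod (gam d)) ∂P -
      ∫ z, g z ∂((gam d).prod (gam d))| ≤ 3 * s * √d := by
  sorry

end Vale.Agent.P347.Q
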