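import Mathlib
import Vale.Agent.P347.Q.Basic
import Vale.Agent.P074.BM

/-!
# Module CO (Conc): concentration of Lipschitz functions from Prékopa–Leindler

`P074.prekopa_leindler` (midpoint form on Euclidean space) with `f = exp(F - V)`, `g = exp(-F - V)`,
`h = exp(-V + L²/2)`: by `Hess12.mid`,
`½(F x - F y) - ½(V x + V y) ≤ ½ L|x-y| - |x-y|²/8 - V(mid) ≤ L²/2 - V(mid)`.
Hence `(∫ e^F dπ)(∫ e^{-F} dπ) ≤ e^{L²}`, and Jensen `∫ e^{-F} dπ ≥ exp(-∫ F dπ)` gives `conc`.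

`var_sq_lip`: `X = h - m`, `m = ∫ h dπ`, `0 ≤ m`, `m² ≤ ∫ h² ≤ 2d`.  `conc` applied to `± h/2` (which
is `1`-Lipschitz) gives `∫ exp(±X/2) ≤ e`; `e^u + e^{-u} ≥ 2 + u² + u⁴/12` gives
`∫ X² ≤ 14`, `∫ X⁴ ≤ 661`; `∫ (h² - ∫h²)² ≤ ∫ (h² - m²)² = ∫ (2mX + X²)² ≤ 8 m² ∫X² + 2 ∫X⁴`.
-/

open MeasureTheory ProbabilityTheory
open scoped InnerProductSpace ENNReal

namespace Vale.Agent.P347.Q

variable {d : ℕ} {V : Sp d → ℝ}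

theorem conc_integrable (hV : Hess12 V) {F : Sp d → ℝ} {L : ℝ}
    (hF : ∀ x y, |F x - F y| ≤ L * ‖x - y‖) : Integrable (fun x => Real.exp (F x)) (gibbs V) := by
  sorry

theorem conc_integrable_self (hV : Hess12 V) {F : Sp d → ℝ} {L : ℝ}
    (hF : ∀ x y, |F x - F y| ≤ L * ‖x - y‖) : Integrable F (gibbs V) := by
  sorry

theorem conc (hV : Hess12 V) {F : Sp d → ℝ} {L : ℝ} (hL : 0 ≤ L)
    (hF : ∀ x y, |F x - F y| ≤ L * ‖x - y‖) :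
    ∫ x, Real.exp (F x - ∫ y, F y ∂(gibbs V)) ∂(gibbs V) ≤ Real.exp (L ^ 2) := by
  sorry

theorem var_sq_lip (hV : Hess12 V) (hd : 1 ≤ d) {h : Sp d → ℝ} (h0 : ∀ x, 0 ≤ h x)
    (hh : ∀ x y, |h x - h y| ≤ 2 * ‖x - y‖) (h2 : ∫ x, h x ^ 2 ∂(gibbs V) ≤ 2 * d) :
    ∫ x, (h x ^ 2 - ∫ y, h y ^ 2 ∂(gibbs V)) ^ 2 ∂(gibbs V) ≤ 2000 * d := by
  sorry

end Vale.Agent.P347.Q
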