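import Mathlib
import Vale.Agent.P347.Q.Gauss

/-!
# Module DA (DerA): derivatives of Gaussian smoothings of bounded functions

`Sm H τ x = ∫ H(x + τ ξ) dγ(ξ)`.  For bounded measurable `H` and `τ > 0`, by `gam_shift`
`Sm H τ (x + h) = ∫ H(x + τ z) exp(⟪h,z⟫/τ - |h|²/(2τ²)) dγ(z)`, so `Sm H τ` is differentiable,
`fderiv (Sm H τ) x v = τ⁻¹ ∫ H(x + τ z) ⟪v, z⟫ dγ(z)` (`hasFDerivAt_Sm`; e.g. differentiation under
the integral sign, `hasFDerivAt_integral_of_dominated_of_fderiv_le`, the domination is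
`C (1+‖z‖)^k exp(C‖z‖)`, `gam_integrable_exp_norm`), continuous in `x` (dominated convergence in the
form with the exponential density) and bounded.
Bessel: `∑_{j,a} (∂_j Sm H_a τ)² = τ⁻² ∑_a ∑_j (∫ H_a(x+τz) z_j)² ≤ τ⁻² ∑_a ∫ H_a(x+τz)² ≤ B/τ²`,
since the coordinates `z_j` are orthonormal in `L²(γ)` (`gam_integral_inner_mul`; expand
`∫ (H - ∑_j c_j z_j)² ≥ 0`).
`Sm (Sm H τ) τ' = Sm H √(τ²+τ'²)` by `gam_conv`, and `∂_j (Sm G τ) = Sm (∂_j G) τ` for `G` of class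
`C¹` with bounded derivative.  `DB_smooth`: for `k ≥ 1` put `τ = ε/√k`, `Sm · ε = (Sm · τ)^[k]`, and
show `DB k ((Sm · τ)^[k] H) ≤ (τ²)⁻ᵏ B` by induction on `k`: `DB (k+1) ((Sm τ)^[k+1] H)`
`= DB k ((Sm τ)^[k] (D Sm H τ))`, and the family `D Sm H τ` is bounded, continuous, with constant
`B/τ²`.  Smoothness and boundedness of all derivatives likewise, from `(Sm · τ)^[k]` being `C^k`.
-/

open MeasureTheory ProbabilityTheory
open scoped InnerProductSpace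

namespace Vale.Agent.P347.Q

variable {d : ℕ}

theorem hasFDerivAt_sm {H : Sp d → ℝ} (hm : Measurable H) {K : ℝ} (hb : ∀ x, |H x| ≤ K) {τ : ℝ}
    (hτ : 0 < τ) (x : Sp d) :
    ∃ L : Sp d →L[ℝ] ℝ, HasFDerivAt (sm H τ) L x ∧
      ∀ v, L v = τ⁻¹ * ∫ z, H (x + τ • z) * ⟪v, z⟫_ℝ ∂(gam d) := by
  sorry

theorem sm_sm {H : Sp d → ℝ} (hm : Measurable H) {K : ℝ} (hb : ∀ x, |H x| ≤ K) (τ τ' : ℝ) :
    sm (sm H τ) τ' = sm H √(τ ^ 2 + τ' ^ 2) := by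
  sorry

theorem bessel {κ : Type} [Fintype κ] {H : κ → Sp d → ℝ} (hm : ∀ a, Measurable (H a)) {B : ℝ}
    (hb : ∀ x, ∑ a, H a x ^ 2 ≤ B) {τ : ℝ} (hτ : 0 < τ) (x : Sp d) :
    ∑ a : Fin d × κ, Dd a.1 (sm (H a.2) τ) x ^ 2 ≤ B / τ ^ 2 := by
  sorry

/-- smoothings of bounded measurable functions are smooth with all derivatives bounded -/
theorem tg_sm {H : Sp d → ℝ} (hm : Measurable H) {K : ℝ} (hb : ∀ x, |H x| ≤ K) {ε : ℝ}
    (hε : 0 < ε) : Function.HasTemperateGrowth (sm H ε) := by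
  sorry

theorem DB_smooth {κ : Type} [Fintype κ] (k : ℕ) {ε B : ℝ} (hε : 0 < ε) {H : κ → Sp d → ℝ}
    (hm : ∀ a, Measurable (H a)) (hb : ∀ x, ∑ a, H a x ^ 2 ≤ B) (x : Sp d) :
    DB k (fun a => sm (H a) ε) x ≤ (k : ℝ) ^ k * B / ε ^ (2 * k) := by
  sorry

end Vale.Agent.P347.Q
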