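import Mathlib
import Vale.Agent.P347.Q.DerA
import Vale.Agent.P347.Q.Ibp

/-!
# Module DB (DerB): the smoothed potential `sm V ε`

`V`, `∇V`, `∇²V` have growth `|x|²`, `|x|`, `1`, so one differentiates twice under the integral
(`hasFDerivAt_integral_of_dominated_of_fderiv_le`; first for `V`, then for `⟪∇V(·), w⟫` or for
`fderiv ℝ V`): `∇(sm V ε) = ∫ ∇V(· + ε ξ)`, `∇²(sm V ε) = ∫ ∇²V(· + ε ξ)`.
So `∂_v ∂_w sm V ε = sm (∂_v ∂_w V) ε` with `∂_v ∂_w V` bounded continuous: temperate growth by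
`tg_sm` and `Function.HasTemperateGrowth.of_fderiv` (twice; bounds for `fderiv` as a map into the
dual: expand in the basis), tensor bounds by `DB_smooth` with `B = 4‖v‖²` (`hess_sq`).
`grad_sm_sub`: `|∇V(x) - ∇V(x+εξ)| ≤ 2 ε |ξ|`.
`hasDerivAt_sm_eps`: `d/dε V(x+εξ) = ⟪∇V(x+εξ), ξ⟫` and `stein` for `ξ ↦ ∂_j V(x + ε ξ)`.
-/

open MeasureTheory ProbabilityTheory
open scoped InnerProductSpace

namespace Vale.Agent.P347.Q

variable {d : ℕ} {V : Sp d → ℝ}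

theorem sm_zero (V : Sp d → ℝ) : sm V 0 = V := by
  sorry

theorem fderiv_sm (hV : IsPotential V) (ε : ℝ) (x v : Sp d) :
    fderiv ℝ (sm V ε) x v = ∫ ξ, fderiv ℝ V (x + ε • ξ) v ∂(gam d) := by
  sorry

theorem grad_sm (hV : IsPotential V) (ε : ℝ) (x : Sp d) :
    gradient (sm V ε) x = ∫ ξ, gradient V (x + ε • ξ) ∂(gam d) := by
  sorry

theorem hess_sm (hV : IsPotential V) (ε : ℝ) (x v w : Sp d) :
    fderiv ℝ (fderiv ℝ (sm V ε)) x v w =
      ∫ ξ, fderiv ℝ (fderiv ℝ V) (x + ε • ξ) v w ∂(gam d) := by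
  sorry

theorem grad_sm_sub (hV : IsPotential V) {ε : ℝ} (hε : 0 ≤ ε) (x : Sp d) :
    ‖gradient V x - gradient (sm V ε) x‖ ≤ 2 * ε * √d := by
  sorry

theorem sm_hess12 (hV : IsPotential V) (ε : ℝ) : Hess12 (sm V ε) := by
  sorry

theorem sm_npot (hV : IsPotential V) {ε : ℝ} (hε : 0 < ε) (hε1 : ε ≤ 1) : NPot (sm V ε) := by
  sorry

theorem sm_tens (hV : IsPotential V) {ε : ℝ} (hε : 0 < ε) :
    Tens (fun k => 4 * (k : ℝ) ^ k) ε (sm V ε) := by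
  sorry

theorem sm_lower (hV : IsPotential V) (ε : ℝ) (x : Sp d) : V x ≤ sm V ε x := by
  sorry

theorem sm_upper (hV : IsPotential V) (ε : ℝ) (x : Sp d) : sm V ε x ≤ V x + ε ^ 2 * d := by
  sorry

theorem hasDerivAt_sm_eps (hV : IsPotential V) (x : Sp d) (ε : ℝ) :
    HasDerivAt (fun e => sm V e x) (ε * lap (sm V ε) x) ε := by
  sorry

theorem lap_sm_bound (hV : IsPotential V) (ε : ℝ) (x : Sp d) :
    0 ≤ lap (sm V ε) x ∧ lap (sm V ε) x ≤ 2 * d := by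
  sorry

end Vale.Agent.P347.Q
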