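import Mathlib
import Vale.Agent.P347.Q.Basic

/-!
# Module FA (FlowA): existence and continuity of the Hamiltonian flow for short times

The vector field `X(y,p) = (p, -∇U(y))` on `Sp d × Sp d` (sup norm) is `2`-Lipschitz
(`Hess12.grad_lip`).  For each starting point Picard–Lindelöf (`IsPicardLindelof`, Mathlib
`Mathlib/Analysis/ODE/PicardLindelof.lean`) on `[-1/5, 1/5]` with ball radius
`a = ‖X z‖ + 1` large: `(‖X z‖ + 2a)/5 ≤ a`.  Continuity in `z`: Grönwall
(`dist_le_of_trajectories_ODE`), joint continuity from it and continuity in `t`.  Clamp the time: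
`Φ t z := Ψ (clamp t to [-1/10, 1/10]) z`.
-/

open MeasureTheory ProbabilityTheory
open scoped InnerProductSpace

namespace Vale.Agent.P347.Q

variable {d : ℕ} {U : Sp d → ℝ}

theorem exists_flow0 (hU : Hess12 U) : ∃ Φ : ℝ → Sp d × Sp d → Sp d × Sp d,
    Continuous (Function.uncurry Φ) ∧ (∀ z, Φ 0 z = z) ∧
    ∀ z, ∀ t ∈ Set.Ioo (-(1 / 10 : ℝ)) (1 / 10),
      HasDerivAt (fun t => Φ t z) ((Φ t z).2, -gradient U (Φ t z).1) t := by
  sorry

end Vale.Agent.P347.Q
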