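import Mathlib
import Vale.Agent.P347.Q.FlowA
import Vale.Agent.P347.Q.Ibp

/-!
# Module FB (FlowB): invariance of `phase U` under the flow

Symplectic Euler `S_h (y,p) = (y + h p, p - h ∇U(y + h p))` is a composition of two shears, so it
preserves Lebesgue measure (`MeasurePreserving.skew_product` or similar).
For fixed `t`, `z`: `S_{t/k}^k z → Φ t z` (`‖S_h x - S_h y‖ ≤ (1+4|h|)‖x-y‖`, local error
`‖S_h (Φ_s z) - Φ_{s+h} z‖ ≤ C_z h²` from the integral form of the equation), and
`‖S_{t/k}^k z‖ ≥ c‖z‖ - C`, `c > 0`, uniformly in `k` (inverse steps are Lipschitz too).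
Hence `∫ G (Φ t z) dz = ∫ G z dz` for continuous compactly supported `G` (dominated convergence).
The energy `H(y,p) = U y + |p|²/2` is constant along the flow (its derivative vanishes).  With
`G = F exp(-H)`: `∫ F (Φ t z) exp(-H z) dz = ∫ F exp(-H) dz`, for `F` continuous with compact
support, so the two finite measures `(phase U).map (Φ t)` and `phase U` agree
(`phase U` has density `exp(-H)/Z` with respect to `volume`, `gam_eq_gibbs`, `prod_withDensity`).
-/

open MeasureTheory ProbabilityTheory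
open scoped InnerProductSpace

namespace Vale.Agent.P347.Q

variable {d : ℕ} {U : Sp d → ℝ}

theorem phase_density (hU : Hess12 U) : ∃ c : ℝ, 0 < c ∧ ∀ g : Sp d × Sp d → ℝ,
    ∫ z, g z ∂(phase U) = c * ∫ z, g z * Real.exp (-(U z.1 + ‖z.2‖ ^ 2 / 2)) := by
  sorry

theorem flow_inv (hU : Hess12 U) {T : ℝ} {Φ : ℝ → Sp d × Sp d → Sp d × Sp d}
    (hc : Continuous (Function.uncurry Φ)) (h0 : ∀ z, Φ 0 z = z)
    (hd : ∀ z, ∀ t ∈ Set.Ioo (-T) T,
      HasDerivAt (fun t => Φ t z) ((Φ t z).2, -gradient U (Φ t z).1) t) :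
    ∀ t ∈ Set.Ioo (-T) T, MeasurePreserving (Φ t) (phase U) (phase U) := by
  sorry

theorem exists_flow (hU : Hess12 U) : ∃ Φ, IsFlow U (1 / 10) Φ := by
  obtain ⟨Φ, hc, h0, hd⟩ := exists_flow0 hU
  exact ⟨Φ, hc, h0, hd, flow_inv hU hc h0 hd⟩

end Vale.Agent.P347.Q
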