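import Mathlib
import Vale.Agent.P347.Q.Boch

/-!
# Module H (Heat): `π_U` is almost invariant under adding Gaussian noise of variance `σ²`

`ρ = exp(-U)/Z`.  `∫∫ g(y + σζ) dγ dπ = ∫ g(x) ρ_σ(x) dx`, `ρ_σ(x) = E ρ(x - σζ) = E ρ(x + σζ)`.
`d/dσ ρ_σ(x) = E⟪∇ρ(x+σζ), ζ⟫ = σ E Δρ(x+σζ)` (`stein`), so
`|∫ g ρ_σ - ∫ g ρ| ≤ ∫_0^σ u (∫∫ |Δρ(x+uζ)| dx dγ) du = (σ²/2) ∫ |Δρ| dx`, and
`Δρ = ρ (|∇U|² - ΔU)`, `∫ |Δρ| = ∫ |ΔU - |∇U|²| dπ ≤ 3√d` (`lapL_abs_le`).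
Total `≤ 3/2 σ² √d`.  Alternative: for fixed `g`, `φ(σ) = ∫∫ g(x) ρ(x + σζ) dx dγ`, differentiate in
`σ` and bound `|φ'(σ)| ≤ σ ∫ |Δρ|`.  (All functions are polynomial × `exp(-U)`,
`U y ≥ |y|²/4 - C`, so dominations on compact `σ` intervals are easy.)
-/

open MeasureTheory ProbabilityTheory
open scoped InnerProductSpace

namespace Vale.Agent.P347.Q

variable {d : ℕ} {U : Sp d → ℝ}

theorem heat (hU : NPot U) {σ : ℝ} (hσ : 0 ≤ σ) (g : Sp d → ℝ) (hg : Measurable g)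
    (h0 : ∀ x, 0 ≤ g x) (h1 : ∀ x, g x ≤ 1) :
    |∫ y, ∫ ζ, g (y + σ • ζ) ∂(gam d) ∂(gibbs U) - ∫ y, g y ∂(gibbs U)| ≤ 2 * σ ^ 2 * √d := by
  sorry

end Vale.Agent.P347.Q
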