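import Mathlib
import Vale.Agent.P347.Q.Chi

/-!
# Module S (Step): measurability, contraction and regularisation of the chain

`step_contr` (same noise).  `a = Δy`, `c = Δp`, `v = a + c`, `R = √Qn ≥ |a|, |v|`.
`ΔA_i = a + L_i`, `|L_i| ≤ 1.5 η R`; `G_i = Δg_i`: `|2ΔA_i - G_i| ≤ |ΔA_i|` (`grad_two`),
`G = ∑ w_i G_i`, `G' = ∑ w_i (1-t_i) G_i`: `|G|, |G'| ≤ 2.1 R`, `|2a - G| ≤ |a| + 4.5 η R`.
`Δy' = a + η(v-a) - η² G'`, `Δy' + Δp' = v + η(-v - a + (2a - G)) + η² (2G - G')`.  Expanding the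
squares: `Qn' ≤ (1 - η + 38 η²) Qn ≤ (1 - η/2) Qn` for `η ≤ 1/1000`.
`last_lip`: integrate first over `ζ_y`; `gam_shift_tv` (scaled by `σ`), and `|Δŷ| ≤ 2 R`.
`chain_contr`: induction: if `|h z - h z'| ≤ L √Qn(z-z')` then
`|Pop h z - Pop h z'| ≤ L √(1-η/2) √Qn(z-z')`, `√(1-η/2) ≤ exp(-η/4)`.
-/

open MeasureTheory ProbabilityTheory
open scoped InnerProductSpace

namespace Vale.Agent.P347.Q

variable {d N M : ℕ} {V : Sp d → ℝ}

theorem continuous_step (hV : Hess12 V) (P : Par N) :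
    Continuous (fun x : Nz d N × (Sp d × Sp d) => step V P x.1 x.2) := by
  sorry

theorem Pop_measurable (hV : Hess12 V) (P : Par N) {g : Sp d × Sp d → ℝ} (hg : Measurable g) :
    Measurable (Pop V P g) := by
  sorry

theorem Pop_nonneg (P : Par N) {g : Sp d × Sp d → ℝ} (h0 : ∀ z, 0 ≤ g z) (z : Sp d × Sp d) :
    0 ≤ Pop V P g z := by
  sorry

theorem Pop_le_one (P : Par N) {g : Sp d × Sp d → ℝ} (h0 : ∀ z, 0 ≤ g z) (h1 : ∀ z, g z ≤ 1)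
    (z : Sp d × Sp d) : Pop V P g z ≤ 1 := by
  sorry

theorem step_contr (hV : Hess12 V) (P : Par N) (hq : QRule M N P.t P.w) (hη : 0 < P.eta)
    (hη' : P.eta ≤ 1 / 1000) (om : Nz d N) (z z' : Sp d × Sp d) :
    Qn (step V P om z - step V P om z') ≤ (1 - P.eta / 2) * Qn (z - z') := by
  sorry

theorem last_lip (hV : Hess12 V) (P : Par N) (hq : QRule M N P.t P.w) (hη : 0 < P.eta)
    (hη' : P.eta ≤ 1 / 1000) (hσ : 0 < P.sig) {f : Sp d → ℝ} (hf : Measurable f)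
    (h0 : ∀ x, 0 ≤ f x) (h1 : ∀ x, f x ≤ 1) (z z' : Sp d × Sp d) :
    |Pop V P (fun z => f z.1) z - Pop V P (fun z => f z.1) z'| ≤
      2 / P.sig * √(Qn (z - z')) := by
  sorry

theorem chain_contr (hV : Hess12 V) (P : Par N) (hq : QRule M N P.t P.w) (hη : 0 < P.eta)
    (hη' : P.eta ≤ 1 / 1000) (hσ : 0 < P.sig) {f : Sp d → ℝ} (hf : Measurable f)
    (h0 : ∀ x, 0 ≤ f x) (h1 : ∀ x, f x ≤ 1) (n : ℕ) (z z' : Sp d × Sp d) :
    |(Pop V P)^[n + 1] (fun z => f z.1) z - (Pop V P)^[n + 1] (fun z => f z.1) z'| ≤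
      2 / P.sig * Real.exp (-(P.eta * n / 4)) * √(Qn (z - z')) := by
  sorry

end Vale.Agent.P347.Q
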