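import Mathlib
import Vale.Agent.P347.Q.Step

/-!
# Module O (Oracle): the chain is a first-order algorithm with `n (N + 1)` queries

Internal model: `Comp q S F`: the value `F V s` can be computed with `q` adaptive queries from the
seed `s : S` (defined by recursion on `q`, the answer to the first query being appended to the
seed).  Show: closure under composition (`Comp q F → Comp q' G → Comp (q+q') (G ∘ F)`-type bind,
with the remaining seed kept), one step of the chain is `Comp (N+1)` on the seed
`Nz d N × (Sp d × Sp d)` (the queries: `∇V(y)`, then `∇V(A_i + ε ξ_i)`), `n` steps are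
`Comp (n (N+1))`, and `Comp q` on a standard Borel seed space gives an `Algorithm d q`.
Seed of the final algorithm: `Fin n → Nz d N`, law `Measure.pi (fun _ => nz d N)`; output `z_n.1`,
`z_0 = 0`.  The law of the output: `∫ f(z_n.1) = (Pop V P)^[n] (f ∘ fst) 0` by induction on `n`
(`measurePreserving_piFinSuccAbove`/`Fin.cons`).  Alternatively write the algorithm directly.
-/

open MeasureTheory ProbabilityTheory
open scoped InnerProductSpace

namespace Vale.Agent.P347.Q

theorem exists_algorithm {d N : ℕ} (P : Par N) (n : ℕ) : ∃ A : Algorithm d (n * (N + 1)),
    ∀ V : Sp d → ℝ, IsPotential V → ∀ B : Set (Sp d), MeasurableSet B →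
      (A.law.map (A.run V)).real B =
        (Pop V P)^[n] (fun z => B.indicator (fun _ => (1 : ℝ)) z.1) 0 := by
  sorry

end Vale.Agent.P347.Q
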