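import Mathlib
import Vale.Agent.P347.Q.Final
import Vale.Agent.P347.Q.Oracle

/-!
# Module X (Main): `γ_* ≤ 1/4`
-/

open MeasureTheory ProbabilityTheory Filter

namespace Vale.Agent.P347.Q

/-- For every accuracy `α` and every `κ > 0`, eventually `d^{1/4+κ}` queries suffice. -/
theorem upper {κ α : ℝ} (hκ : 0 < κ) (hα : 0 < α) : ∀ᶠ d : ℕ in atTop,
    ∃ q : ℕ, (q : ℝ) ≤ (d : ℝ) ^ (1 / 4 + κ) ∧ ∃ A : Algorithm d q, A.Accurate α := by
  filter_upwards [final_tv hκ hα] with d hd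
  obtain ⟨N, n, P, hq, h⟩ := hd
  obtain ⟨A, hA⟩ := exists_algorithm (d := d) P n
  refine ⟨n * (N + 1), hq, A, fun V hV B hB => ?_⟩
  have h1 := h V hV (B.indicator fun _ => (1 : ℝ)) (measurable_const.indicator hB)
    (fun x => Set.indicator_nonneg (fun _ _ => zero_le_one) x)
    (fun x => Set.indicator_le_self' (fun _ _ => zero_le_one) x |>.trans le_rfl)
  rw [hA V hV B hB]
  have h2 : ∫ x, B.indicator (fun _ => (1 : ℝ)) x ∂(gibbs V) = (gibbs V).real B := by
    rw [integral_indicator hB]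
    simp
  rw [h2] at h1
  exact h1

theorem dimExponent_le : dimExponent ≤ ((1 / 4 : ℝ) : EReal) := by
  sorry

end Vale.Agent.P347.Q
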