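import Mathlib
import Vale.Agent.P347.Q.Defs

/-!
# Module QU (Quad): positive quadrature rules and their remainder

`exists_qrule`: the vector `(∫₀¹ t^k dt)_{k<M}` lies in the closed convex hull of the compact curve
`{(t^k)_{k<M} : t ∈ [0,1]}` (`Convex.integral_mem`, `convexHull` of a compact set of `Fin M → ℝ` is
compact: `IsCompact.convexHull`), and a point of a convex hull is a finite convex combination
(`mem_convexHull_iff_exists_fintype` / `convexHull_eq`).  (`∑ w = 1` gives the moment 0.)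
`quad_rem0/1`: Taylor with integral remainder: `g 0 u = P u + R u`, `P` a polynomial of degree
`< m` with coefficients in `F`, `‖R u‖ ≤ u^{m-1} ∫_0^u ‖g m‖ ≤ h^{m-1} ∫_0^h ‖g m‖` (prove by
induction on `m`, generalising `g`: e.g. `g 0 u = g 0 0 + ∫_0^u g 1`); the rule is exact on `P` and
each of the two functionals is bounded by `h sup‖R‖` (`h² sup ‖R‖` in `quad_rem1`).
-/

open MeasureTheory

namespace Vale.Agent.P347.Q

theorem exists_qrule (M : ℕ) : ∃ (N : ℕ) (t w : Fin N → ℝ), QRule M N t w := by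
  sorry

variable {F : Type*} [NormedAddCommGroup F] [NormedSpace ℝ F] [CompleteSpace F]

/-- Taylor expansion with a polynomial part -/
theorem taylor_poly (m : ℕ) (g : ℕ → ℝ → F) {h : ℝ} (hh : 0 ≤ h)
    (hd : ∀ k < m, ∀ u ∈ Set.Icc 0 h, HasDerivAt (g k) (g (k + 1) u) u)
    (hc : Continuous (g m)) (hm : 1 ≤ m) :
    ∃ c : Fin m → F, ∀ u ∈ Set.Icc 0 h,
      ‖g 0 u - ∑ k : Fin m, (u ^ (k : ℕ)) • c k‖ ≤ h ^ (m - 1) * ∫ s in (0 : ℝ)..h, ‖g m s‖ := by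
  sorry

theorem quad_rem0 {M N : ℕ} {t w : Fin N → ℝ} (hq : QRule M N t w) {m : ℕ} (hm1 : 1 ≤ m)
    (hm : m ≤ M) (g : ℕ → ℝ → F) {h : ℝ} (hh : 0 ≤ h)
    (hd : ∀ k < m, ∀ u ∈ Set.Icc 0 h, HasDerivAt (g k) (g (k + 1) u) u)
    (hc : Continuous (g m)) :
    ‖h • ∑ i, w i • g 0 (h * t i) - ∫ u in (0 : ℝ)..h, g 0 u‖ ≤
      2 * h ^ m * ∫ u in (0 : ℝ)..h, ‖g m u‖ := by
  sorry

theorem quad_rem1 {M N : ℕ} {t w : Fin N → ℝ} (hq : QRule M N t w) {m : ℕ} (hm1 : 1 ≤ m)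
    (hm : m + 1 ≤ M) (g : ℕ → ℝ → F) {h : ℝ} (hh : 0 ≤ h)
    (hd : ∀ k < m, ∀ u ∈ Set.Icc 0 h, HasDerivAt (g k) (g (k + 1) u) u)
    (hc : Continuous (g m)) :
    ‖(h ^ 2) • ∑ i, (w i * (1 - t i)) • g 0 (h * t i) - ∫ u in (0 : ℝ)..h, (h - u) • g 0 u‖ ≤
      2 * h ^ (m + 1) * ∫ u in (0 : ℝ)..h, ‖g m u‖ := by
  sorry

end Vale.Agent.P347.Q
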