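import Mathlib
import Vale.Agent.P347.Q.Boch

/-!
# Module RA (RegA): families of functions on the phase space and their derivative norms

`FG U ε r Φ B` says: for every word `D` of length `≤ r` in the derivative operators `Yd`, `Pd`,
`‖D Φ‖²_{L²(phase U)} ≤ B ε^{-2 #Yd}` (sums over all indices).  `MG` is the corresponding pointwise
operator norm bound for matrix valued functions of `y`.  All statements by induction on `r`
generalising over the families; `Fin d × κ` indices are shuffled with `FG_reindex`.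
`FG_add`: `(a+b)² ≤ 2a² + 2b²`.
`FG_mat`: `D_p(M Ψ) = M (D_p Ψ)`, `D_y(M Ψ) = (D M) Ψ + M (D_y Ψ)`.
`MG_hess`: more generally `MG ε r M C` if `DB k (fun a y => ∑ l, M a l y * v l) y ≤ C/ε^(2k) ∑ v_l²`
for all `k ≤ r`, `v`, `y`; `∑_l v_l ∇²U(ee l, ee j) = ∇²U(v, ee j)`.
`FG_force`: `Pd` of the force family vanishes (zero family), `Yd` of it is the Hessian family
`∂_j ∂_i U (z.1)`; use `FG_of_DB` and `Tens` with `v = ee i`, summed over `i` (`d` terms: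
`DB k` of a family indexed by a product is a sum), and `grad_sq_le` for the word of length 0.
-/

open MeasureTheory ProbabilityTheory
open scoped InnerProductSpace

namespace Vale.Agent.P347.Q

variable {d : ℕ} {U : Sp d → ℝ} {ε : ℝ}

/-- all derivative words of length `≤ r` of the family `Φ`, `ε²` being the price of a `y`-derivative -/
def FG (U : Sp d → ℝ) (ε : ℝ) : (r : ℕ) → {ι : Type} → [Fintype ι] →
    (ι → Sp d × Sp d → ℝ) → ℝ → Prop
  | 0, _, _, Φ, B => ∫ z, ∑ a, Φ a z ^ 2 ∂(phase U) ≤ B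
  | r + 1, ι, _, Φ, B => (∫ z, ∑ a, Φ a z ^ 2 ∂(phase U) ≤ B) ∧
      FG U ε r (ι := Fin d × ι) (fun a => Pd a.1 (Φ a.2)) B ∧
      FG U ε r (ι := Fin d × ι) (fun a => Yd a.1 (Φ a.2)) (B / ε ^ 2)

/-- matrix functions `M : κ × d` of `y`: pointwise operator norm bounds for the first `r`
derivative tensors, `‖D^k M(y) v‖² ≤ c ε^{-2k} |v|²` -/
def MG (ε : ℝ) : (r : ℕ) → {κ : Type} → [Fintype κ] → (κ → Fin d → Sp d → ℝ) → ℝ → Prop
  | 0, _, _, M, c => ∀ (y : Sp d) (v : Fin d → ℝ), ∑ a, (∑ l, M a l y * v l) ^ 2 ≤ c * ∑ l, v l ^ 2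
  | r + 1, κ, _, M, c => (∀ (y : Sp d) (v : Fin d → ℝ),
        ∑ a, (∑ l, M a l y * v l) ^ 2 ≤ c * ∑ l, v l ^ 2) ∧
      MG ε r (κ := Fin d × κ) (fun a l => Dd a.1 (M a.2 l)) (c / ε ^ 2)

theorem tg_Yd {φ : Sp d × Sp d → ℝ} (h : Function.HasTemperateGrowth φ) (j : Fin d) :
    Function.HasTemperateGrowth (Yd j φ) := by
  sorry

theorem tg_Pd {φ : Sp d × Sp d → ℝ} (h : Function.HasTemperateGrowth φ) (j : Fin d) :
    Function.HasTemperateGrowth (Pd j φ) := by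
  sorry

theorem FG_zero {r : ℕ} {ι : Type} [Fintype ι] {Φ : ι → Sp d × Sp d → ℝ} {B : ℝ}
    (h : FG U ε r Φ B) : ∫ z, ∑ a, Φ a z ^ 2 ∂(phase U) ≤ B := by
  sorry

theorem FG_mono {r : ℕ} {ι : Type} [Fintype ι] {Φ : ι → Sp d × Sp d → ℝ} {B B' : ℝ}
    (h : FG U ε r Φ B) (hB : B ≤ B') : FG U ε r Φ B' := by
  sorry

theorem FG_le {r r' : ℕ} (hr : r' ≤ r) {ι : Type} [Fintype ι] {Φ : ι → Sp d × Sp d → ℝ} {B : ℝ}
    (h : FG U ε r Φ B) : FG U ε r' Φ B := by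
  sorry

theorem FG_reindex {r : ℕ} {ι κ : Type} [Fintype ι] [Fintype κ] (e : κ ≃ ι)
    {Φ : ι → Sp d × Sp d → ℝ} {B : ℝ} (h : FG U ε r Φ B) : FG U ε r (fun a => Φ (e a)) B := by
  sorry

theorem FG_add (hU : NPot U) {r : ℕ} {ι : Type} [Fintype ι] {Φ Ψ : ι → Sp d × Sp d → ℝ}
    {B B' : ℝ} (hΦ : ∀ a, Function.HasTemperateGrowth (Φ a))
    (hΨ : ∀ a, Function.HasTemperateGrowth (Ψ a)) (h : FG U ε r Φ B) (h' : FG U ε r Ψ B') :
    FG U ε r (fun a z => Φ a z + Ψ a z) (2 * (B + B')) := by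
  sorry

theorem FG_neg {r : ℕ} {ι : Type} [Fintype ι] {Φ : ι → Sp d × Sp d → ℝ} {B : ℝ}
    (h : FG U ε r Φ B) : FG U ε r (fun a z => -Φ a z) B := by
  sorry

/-- multiplication of a family by a matrix function of the position -/
theorem FG_mat (hU : NPot U) (hε : 0 < ε) (r : ℕ) {κ ι : Type} [Fintype κ] [Fintype ι]
    (M : κ → Fin d → Sp d → ℝ) (Ψ : Fin d × ι → Sp d × Sp d → ℝ) {c B : ℝ}
    (hM : ∀ a l, Function.HasTemperateGrowth (M a l))
    (hΨ : ∀ a, Function.HasTemperateGrowth (Ψ a)) (hc : 0 ≤ c) (hB : 0 ≤ B)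
    (h : MG ε r M c) (h' : FG U ε r Ψ B) :
    FG U ε r (fun (a : κ × ι) z => ∑ l, M a.1 l z.1 * Ψ (l, a.2) z) (4 ^ r * c * B) := by
  sorry

/-- the Hessian matrix function -/
theorem MG_hess (hU : NPot U) (hε : 0 < ε) {c : ℕ → ℝ} (hT : Tens c ε U) (r : ℕ) :
    MG ε r (fun (j l : Fin d) (y : Sp d) => fderiv ℝ (fderiv ℝ U) y (ee l) (ee j))
      (∑ k ∈ Finset.range (r + 1), |c k|) := by
  sorry

/-- families of functions of the position only -/
theorem FG_of_DB (hU : NPot U) (hε : 0 < ε) (r : ℕ) {ι : Type} [Fintype ι] {F : ι → Sp d → ℝ}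
    {B : ℝ} (hB : 0 ≤ B) (hF : ∀ a, Function.HasTemperateGrowth (F a))
    (h : ∀ k ≤ r, ∀ y, DB k F y ≤ B / ε ^ (2 * k)) :
    FG U ε r (fun a z => F a z.1) B := by
  sorry

theorem FG_force (hU : NPot U) (hε : 0 < ε) (hε1 : ε ≤ 1) {c : ℕ → ℝ} (hT : Tens c ε U) (r : ℕ) :
    FG U ε r (force U) ((2 + ∑ k ∈ Finset.range (r + 1), |c k|) * d) := by
  sorry

end Vale.Agent.P347.Q
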