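import Mathlib
import Vale.Agent.P347.Q.RegA

/-!
# Module RB (RegB): `L²` bounds for iterated Liouville derivatives of the force

`liou_sq`: in coordinates `Liou U φ = ∑_j (z.2 j * Yd j φ - Dd j U z.1 * Pd j φ)
 = ∑_j (z.2 j * ψ_j - Pd j ψ_j) - ∑_j (Dd j U z.1 * χ_j - Yd j χ_j)` with `ψ_j = Yd j φ`,
`χ_j = Pd j φ` (`Pd j Yd j φ = Yd j Pd j φ`).  By `div_sq` (directions `(0, ee j)`, `B_j = z.2 j`,
respectively `(ee j, 0)`, `B_j = Dd j U z.1`), `2ab ≤ a² + b²` and `hess_sq`: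
first square `≤ ∑_{jk} ‖Pd k ψ_j‖² + ∑ ‖ψ_j‖²`, second `≤ ∑_{jk} ‖Yd k χ_j‖² + 2 ∑ ‖χ_j‖²`.
`reg_step` by induction on `r`, generalising `Φ`, `B`:
`Pd j (Liou φ) = Liou (Pd j φ) + Yd j φ`, `Yd j (Liou φ) = Liou (Yd j φ) - ∑_l ∂_l∂_j U(z.1) Pd l φ`
(`FG_add`, `FG_mat` with `MG_hess`, `FG_reindex`), constants `K_0 = 10`,
`K_{r+1} = 2 K_r + 2 + 2·4^r ∑_{k≤r}|c k|` (+10 to be safe).
`reg`: iterate `reg_step` `m` times starting from `FG_force` with `r = 2 m`.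
-/

open MeasureTheory ProbabilityTheory
open scoped InnerProductSpace

namespace Vale.Agent.P347.Q

theorem tg_Liou {d : ℕ} {U : Sp d → ℝ} (hU : NPot U) {φ : Sp d × Sp d → ℝ}
    (h : Function.HasTemperateGrowth φ) : Function.HasTemperateGrowth (Liou U φ) := by
  sorry

theorem tg_force {d : ℕ} {U : Sp d → ℝ} (hU : NPot U) (i : Fin d) :
    Function.HasTemperateGrowth (force U i) := by
  sorry

theorem liou_sq {d : ℕ} {U : Sp d → ℝ} (hU : NPot U) {φ : Sp d × Sp d → ℝ}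
    (h : Function.HasTemperateGrowth φ) :
    ∫ z, Liou U φ z ^ 2 ∂(phase U) ≤
      2 * (∫ z, ∑ j, Yd j φ z ^ 2 ∂(phase U)) + 4 * (∫ z, ∑ j, Pd j φ z ^ 2 ∂(phase U)) +
      4 * ∫ z, ∑ j, ∑ k, Pd k (Yd j φ) z ^ 2 ∂(phase U) := by
  sorry

theorem reg_step (c : ℕ → ℝ) (r : ℕ) : ∃ K : ℝ, 0 ≤ K ∧ ∀ (d : ℕ) (U : Sp d → ℝ) (ε : ℝ),
    0 < ε → ε ≤ 1 → NPot U → Tens c ε U → ∀ {ι : Type} [Fintype ι]
      (Φ : ι → Sp d × Sp d → ℝ) (B : ℝ), 0 ≤ B → (∀ a, Function.HasTemperateGrowth (Φ a)) →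
      FG U ε (r + 2) Φ B → FG U ε r (fun a => Liou U (Φ a)) (K * B / ε ^ 2) := by
  sorry

/-- **Regularity in time of the force along the Hamiltonian flow.** -/
theorem reg (c : ℕ → ℝ) (m : ℕ) : ∃ C : ℝ, 0 ≤ C ∧ ∀ (d : ℕ) (U : Sp d → ℝ) (ε : ℝ),
    0 < ε → ε ≤ 1 → NPot U → Tens c ε U →
      ∫ z, ∑ i, ((Liou U)^[m] (force U i) z) ^ 2 ∂(phase U) ≤ C * d / ε ^ (2 * m) := by
  sorry

end Vale.Agent.P347.Q
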