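import Mathlib
import Vale.Agent.P347.Q.Boch
import Vale.Agent.P347.Q.Conc
import Vale.Agent.P347.Q.DerB

/-!
# Module R (Rem): `TV(π_{sm V ε}, π_V) ≤ C ε² √d`

For measurable `g` with values in `[0,1]` put `φ(e) = ∫ g dπ_{sm V e}
= (∫ g exp(-sm V e)) / ∫ exp(-sm V e)`.  By `hasDerivAt_sm_eps`, `sm_lower`, `lap_sm_bound` one may
differentiate under the integral (domination on `e ∈ [0,1]`: `|e lap| exp(-sm V e) ≤ 2d exp(-V)`):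
`φ'(e) = -e ∫ g (ΔV_e - ∫ΔV_e dπ_e) dπ_e`, `V_e = sm V e`, `π_e = gibbs V_e`, so
`|φ'(e)| ≤ e (∫ (ΔV_e - mean)² dπ_e)^{1/2}` and for `0 < e ≤ 1`
`∫ (ΔV_e - mean)² ≤ ∫ (ΔV_e - a)²` for every constant `a`; take `a = ∫|∇V_e|²`:
`≤ 2 ∫ (ΔV_e - |∇V_e|²)² + 2 ∫ (|∇V_e|² - a)² ≤ 16 d + 4000 d` (`lapL_sq_le`, `var_sq_lip` with
`h = ‖∇V_e‖`, `grad_lip`, `grad_sq_le`).  So `|φ(ε) - φ(0)| ≤ 64 √d ε²/2` (mean value inequality;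
at `e = 0` the derivative is `0`).
-/

open MeasureTheory ProbabilityTheory
open scoped InnerProductSpace

namespace Vale.Agent.P347.Q

variable {d : ℕ} {V : Sp d → ℝ}

theorem var_lap (hV : IsPotential V) (hd : 1 ≤ d) {e : ℝ} (he : 0 < e) (he1 : e ≤ 1) :
    ∫ x, (lap (sm V e) x - ∫ y, ‖gradient (sm V e) y‖ ^ 2 ∂(gibbs (sm V e))) ^ 2
      ∂(gibbs (sm V e)) ≤ 4016 * d := by
  sorry

theorem gibbs_sm_tv (hV : IsPotential V) (hd : 1 ≤ d) {ε : ℝ} (hε : 0 < ε) (hε1 : ε ≤ 1) :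
    TVle (gibbs (sm V ε)) (gibbs V) (64 * ε ^ 2 * √d) := by
  sorry

end Vale.Agent.P347.Q
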