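import Mathlib
import Vale.Agent.P347.Q.DerB
import Vale.Agent.P347.Q.Boch
import Vale.Agent.P347.Q.RegB
import Vale.Agent.P347.Q.Quad
import Vale.Agent.P347.Q.FlowB

/-!
# Module SA (StatA): the mean of a step against the exact flow

`U = sm V ε`, `(y_t, p_t) = Φ t z`, `f = ∇U`, `μ = phase U` (flow invariant), `E_μ|p| ≤ √d`.
`y_t = y + t p - ∫_0^t (t-u) f(y_u) du`, `p_t = p - ∫_0^t f(y_u) du` (`flow_pos`, `flow_mom`: both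
sides have the same derivative; or `intervalIntegral.integral_eq_sub_of_hasDerivAt` for
`u ↦ (t-u) p_u + y_u` and for `p_u`).
`aux_bias`: `A(t) - y_t = -(t²/2)(∇V(y) - f(y)) + ∫_0^t (t-u)(f(y_u) - f(y)) du`, `grad_sm_sub`,
`|f(y_u) - f(y)| ≤ 2 |y_u - y| ≤ 2 ∫_0^u |p_v| dv`; integrate over `μ` (Fubini, invariance):
`≤ t² ε √d + t³ √d`.
`mean_bias1/2`: `m1 z = y + η p - η² ∑ w_i (1-t_i) f(A_i)`; `|m1 z - y_η| ≤
 η² ∑ w_i(1-t_i) 2|A_i - y_{η t_i}| + |η² ∑ w_i(1-t_i) f(y_{ηt_i}) - ∫_0^η (η-u) f(y_u) du|`;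
the last term by `quad_rem1` with `g k u = ` the vector with components
`(Liou U)^[k] (force U i) (Φ u z)` (`(WithLp.toLp 2 fun i => …)`; `HasDerivAt` by the chain rule,
`d/du φ(Φ u z) = Liou U φ (Φ u z)`), `m = M`, and
`∫ ∫_0^η ‖g M u‖ du dμ = η ∫ ‖g M 0‖ dμ ≤ η (C d)^{1/2} ε^{-M}` (`reg`, `sm_tens`, invariance).
-/

open MeasureTheory ProbabilityTheory
open scoped InnerProductSpace

namespace Vale.Agent.P347.Q

variable {d N : ℕ} {U V : Sp d → ℝ}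

/-- chain rule along the flow -/
theorem liou_flow {T : ℝ} {Φ : ℝ → Sp d × Sp d → Sp d × Sp d} (hU : NPot U)
    (hΦ : IsFlow U T Φ) {φ : Sp d × Sp d → ℝ} (hφ : Function.HasTemperateGrowth φ)
    (z : Sp d × Sp d) {t : ℝ} (ht : t ∈ Set.Ioo (-T) T) :
    HasDerivAt (fun t => φ (Φ t z)) (Liou U φ (Φ t z)) t := by
  sorry

theorem flow_mom {Φ : ℝ → Sp d × Sp d → Sp d × Sp d} (hU : Hess12 U)
    (hΦ : IsFlow U (1 / 10) Φ) (z : Sp d × Sp d) {t : ℝ} (ht : t ∈ Set.Ico (0 : ℝ) (1 / 10)) :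
    (Φ t z).2 = z.2 - ∫ u in (0 : ℝ)..t, gradient U (Φ u z).1 := by
  sorry

theorem flow_pos {Φ : ℝ → Sp d × Sp d → Sp d × Sp d} (hU : Hess12 U)
    (hΦ : IsFlow U (1 / 10) Φ) (z : Sp d × Sp d) {t : ℝ} (ht : t ∈ Set.Ico (0 : ℝ) (1 / 10)) :
    (Φ t z).1 = z.1 + t • z.2 - ∫ u in (0 : ℝ)..t, (t - u) • gradient U (Φ u z).1 := by
  sorry

theorem aux_bias (hV : IsPotential V) {ε : ℝ} (hε : 0 < ε) (hε1 : ε ≤ 1)
    {Φ : ℝ → Sp d × Sp d → Sp d × Sp d} (hΦ : IsFlow (sm V ε) (1 / 10) Φ) {t : ℝ}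
    (ht : t ∈ Set.Ico (0 : ℝ) (1 / 10)) :
    ∫ z, ‖(z.1 + t • z.2 - (t ^ 2 / 2) • gradient V z.1) - (Φ t z).1‖ ∂(phase (sm V ε)) ≤
      (t ^ 2 * ε + t ^ 3) * √d := by
  sorry

/-- the mean position after a step (before adding noise) -/
noncomputable def mean1 (V : Sp d → ℝ) (P : Par N) (z : Sp d × Sp d) : Sp d :=
  z.1 + P.eta • z.2 -
    (P.eta ^ 2) • ∑ i, (P.w i * (1 - P.t i)) • gradient (sm V P.eps) (aux V P z i)

/-- the mean momentum after a step (before damping) -/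
noncomputable def mean2 (V : Sp d → ℝ) (P : Par N) (z : Sp d × Sp d) : Sp d :=
  z.2 - P.eta • ∑ i, P.w i • gradient (sm V P.eps) (aux V P z i)

theorem mean_bias1 (M : ℕ) (hM : 1 ≤ M) : ∃ C : ℝ, 0 ≤ C ∧ ∀ (d N : ℕ) (V : Sp d → ℝ)
    (P : Par N) (Φ : ℝ → Sp d × Sp d → Sp d × Sp d), IsPotential V → QRule (M + 1) N P.t P.w →
    0 < P.eta → P.eta ≤ 1 / 1000 → 0 < P.eps → P.eps ≤ 1 →
    IsFlow (sm V P.eps) (1 / 10) Φ →
    ∫ z, ‖mean1 V P z - (Φ P.eta z).1‖ ∂(phase (sm V P.eps)) ≤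
      C * √d * P.eta ^ 2 * (P.eta ^ 2 * P.eps + P.eta ^ 3 + (P.eta / P.eps) ^ M) := by
  sorry

theorem mean_bias2 (M : ℕ) (hM : 1 ≤ M) : ∃ C : ℝ, 0 ≤ C ∧ ∀ (d N : ℕ) (V : Sp d → ℝ)
    (P : Par N) (Φ : ℝ → Sp d × Sp d → Sp d × Sp d), IsPotential V → QRule (M + 1) N P.t P.w →
    0 < P.eta → P.eta ≤ 1 / 1000 → 0 < P.eps → P.eps ≤ 1 →
    IsFlow (sm V P.eps) (1 / 10) Φ →
    ∫ z, ‖mean2 V P z - (Φ P.eta z).2‖ ∂(phase (sm V P.eps)) ≤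
      C * √d * P.eta * (P.eta ^ 2 * P.eps + P.eta ^ 3 + (P.eta / P.eps) ^ M) := by
  sorry

/-- integrability of the quantities above -/
theorem mean_integrable (P : Par N) {Φ : ℝ → Sp d × Sp d → Sp d × Sp d} (hV : IsPotential V)
    (hε : 0 < P.eps) (hε1 : P.eps ≤ 1) (hη : 0 < P.eta) (hη' : P.eta ≤ 1 / 1000)
    (hΦ : IsFlow (sm V P.eps) (1 / 10) Φ) :
    Integrable (fun z => ‖mean1 V P z - (Φ P.eta z).1‖) (phase (sm V P.eps)) ∧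
    Integrable (fun z => ‖mean2 V P z - (Φ P.eta z).2‖) (phase (sm V P.eps)) := by
  sorry

end Vale.Agent.P347.Q
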