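import Mathlib
import Vale.Agent.P347.Q.StatA
import Vale.Agent.P347.Q.Chi
import Vale.Agent.P347.Q.Conc
import Vale.Agent.P347.Q.Step

/-!
# Module SB (StatB): the Gaussian noise of a step absorbs the fluctuations of the gradients

Fix `z`, `A_i = aux V P z i`, `G_i(ξ) = ∇V(A_i + ε ξ_i) - ∇(sm V ε)(A_i)`.
`grad_mgf`: `ξ ↦ ⟪u, ∇V(A + ε ξ)⟫` is `2 ε |u|`-Lipschitz (`grad_lip`), its mean is
`⟪u, ∇(sm V ε)(A)⟫` (`grad_sm`); `conc` for `gam d = gibbs(|x|²/2)` (`gam_eq_gibbs`,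
`hess12_half_sq`).
`hat1 - mean1 = -η² ∑ w_i (1-t_i) G_i`, `hat2 - mean2 = -η ∑ w_i G_i`.  Put
`F1 = (hat1 - mean1)/σ`, `F2 = (a/b)(hat2 - mean2)` on `Ω = Fin N → Sp d` with the product law:
`⟪u,F1⟫ + ⟪v,F2⟫ = ∑_i ⟪-(α_i u + β_i v), G_i⟫`, `α_i = η² w_i(1-t_i)/σ`, `β_i = a η w_i / b`; by
independence (`integral_fin_nat_prod_eq_prod`/`Measure.pi` product integrals) the mgf is
`≤ exp(4ε² ∑ |α_i u + β_i v|²) ≤ exp(8ε²(∑α_i²|u|² + ∑β_i²|v|²)) ≤ exp(s(|u|²+|v|²))`,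
`s = 8 ε² (η⁴/σ² + η)`, since `∑ w_i² ≤ 1` and `a²/b² ≤ 1/(2η)`, `η²/(2η) ≤ η` (`b² = 4η - 4η²`).
Then `absorb` for the test function `(x, y) ↦ g(mean1 + σ x, a mean2 + b y)`.
-/

open MeasureTheory ProbabilityTheory
open scoped InnerProductSpace

namespace Vale.Agent.P347.Q

variable {d N M : ℕ} {V : Sp d → ℝ}

theorem grad_mgf (hV : IsPotential V) {ε : ℝ} (hε : 0 ≤ ε) (A u : Sp d) :
    Integrable (fun ξ => Real.exp ⟪u, gradient V (A + ε • ξ) - gradient (sm V ε) A⟫_ℝ) (gam d) ∧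
    ∫ ξ, Real.exp ⟪u, gradient V (A + ε • ξ) - gradient (sm V ε) A⟫_ℝ ∂(gam d) ≤
      Real.exp (4 * ε ^ 2 * ‖u‖ ^ 2) := by
  sorry

theorem Par.b_pos {P : Par N} (hη : 0 < P.eta) (hη' : P.eta ≤ 1 / 1000) : 0 < P.b := by
  sorry

theorem Par.b_sq_ge {P : Par N} (hη : 0 < P.eta) (hη' : P.eta ≤ 1 / 1000) :
    2 * P.eta ≤ P.b ^ 2 := by
  sorry

theorem step_absorb (hV : IsPotential V) (hd : 1 ≤ d) (P : Par N) (hq : QRule M N P.t P.w)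
    (hη : 0 < P.eta) (hη' : P.eta ≤ 1 / 1000) (hε : 0 < P.eps) (hε1 : P.eps ≤ 1)
    (hσ : 0 < P.sig) (z : Sp d × Sp d) (g : Sp d × Sp d → ℝ) (hg : Measurable g)
    (h0 : ∀ z, 0 ≤ g z) (h1 : ∀ z, g z ≤ 1) :
    |Pop V P g z - ∫ ζ, g (mean1 V P z + P.sig • ζ.1, P.a • mean2 V P z + P.b • ζ.2)
        ∂((gam d).prod (gam d))| ≤
      24 * P.eps ^ 2 * (P.eta ^ 4 / P.sig ^ 2 + P.eta) * √d := by
  sorry

end Vale.Agent.P347.Q
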