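import Mathlib
import Vale.Agent.P347.Q.StatB
import Vale.Agent.P347.Q.Heat

/-!
# Module SC (StatC): stationarity defect of the chain

`U = sm V ε`, `μ = phase U`, `Φ` the flow (`exists_flow`, `sm_hess12`).
`refresh`: `∫∫ g((Φ z).1 + σζ.1, a (Φ z).2 + b ζ.2) dζ dμ = ∫∫ g(z.1 + σζ.1, a z.2 + b ζ.2) dζ dμ`
(invariance); under `μ ⊗ γ ⊗ γ` the variable `a z.2 + b ζ.2` is standard Gaussian and independent of
`z.1, ζ.1` (`gam_conv` with `a² + b² = 1`), so this is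
`∫∫∫ g(y + σζ, p) dγ(ζ) dπ_U(y) dγ(p)`, and `heat` (for `g(·, p)`) compares with `∫ g dμ`.
`stat_defect`: for each `z`, `step_absorb` and `gam_shift_tv_prod` (with `x = mean1 V P z`,
`x' = (Φ η z).1`, `y = a mean2`, `y' = a (Φ η z).2`, `|a| ≤ 1`, `b ≥ √η`), integrate over `μ` and use
`mean_bias1`, `mean_bias2`.
-/

open MeasureTheory ProbabilityTheory
open scoped InnerProductSpace

namespace Vale.Agent.P347.Q

variable {d N : ℕ} {V : Sp d → ℝ}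

theorem refresh (hV : IsPotential V) (P : Par N) (hη : 0 < P.eta) (hη' : P.eta ≤ 1 / 1000)
    (hε : 0 < P.eps) (hε1 : P.eps ≤ 1) (hσ : 0 < P.sig)
    {Φ : ℝ → Sp d × Sp d → Sp d × Sp d} (hΦ : IsFlow (sm V P.eps) (1 / 10) Φ)
    (g : Sp d × Sp d → ℝ) (hg : Measurable g) (h0 : ∀ z, 0 ≤ g z) (h1 : ∀ z, g z ≤ 1) :
    |∫ z, ∫ ζ, g ((Φ P.eta z).1 + P.sig • ζ.1, P.a • (Φ P.eta z).2 + P.b • ζ.2)
        ∂((gam d).prod (gam d)) ∂(phase (sm V P.eps)) - ∫ z, g z ∂(phase (sm V P.eps))| ≤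
      2 * P.sig ^ 2 * √d := by
  sorry

theorem stat_defect (M : ℕ) (hM : 1 ≤ M) : ∃ C : ℝ, 0 ≤ C ∧ ∀ (d N : ℕ) (V : Sp d → ℝ)
    (P : Par N), 1 ≤ d → IsPotential V → QRule (M + 1) N P.t P.w →
    0 < P.eta → P.eta ≤ 1 / 1000 → 0 < P.eps → P.eps ≤ 1 → 0 < P.sig →
    ∀ g : Sp d × Sp d → ℝ, Measurable g → (∀ z, 0 ≤ g z) → (∀ z, g z ≤ 1) →
    |∫ z, Pop V P g z ∂(phase (sm V P.eps)) - ∫ z, g z ∂(phase (sm V P.eps))| ≤
      C * √d * (P.sig ^ 2 + P.eps ^ 2 * (P.eta ^ 4 / P.sig ^ 2 + P.eta) +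
        (P.eta ^ 2 / P.sig + √P.eta) *
          (P.eta ^ 2 * P.eps + P.eta ^ 3 + (P.eta / P.eps) ^ M)) := by
  sorry

end Vale.Agent.P347.Q
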